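/-
P235-M, helper102.  Theorem (G): closing a rank-bounded set of permutations by an arbitrary
feedback permutation.

`rk V i l` = number of `k ≤ i` with `V k > l`; `RankSet ρ` = all permutations with `rk V ≤ ρ`.
`σ` feeds the values back to the positions, so the loops are the cycles of `σ * V`.
If the least free value is fed back to the least free position `a`, then at least as many members
of a class of a rank-bounded set have `a` and `b` in different cycles as in the same cycle.
-/
import Mathlib

namespace Vale.Agent.P235.H102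

open Equiv Finset

section cycles

variable {α : Type*} [DecidableEq α] [Fintype α]

omit [DecidableEq α] [Fintype α] in
theorem ap_inv (f : Perm α) (x : α) : f (f⁻¹ x) = x := by simp

omit [DecidableEq α] [Fintype α] in
theorem inv_ap (f : Perm α) (x : α) : f⁻¹ (f x) = x := by simp

omit [DecidableEq α] in
theorem sc_nat {π : Perm α} {x y : α} (h : π.SameCycle x y) : ∃ n : ℕ, (π ^ n) x = y := by
  obtain ⟨n, _, hn⟩ := h.exists_pow_eq'
  exact ⟨n, hn⟩

omit [DecidableEq α] in
theorem sc_of_step {π π' : Perm α} (h : ∀ x, π.SameCycle x (π' x)) {x y : α}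
    (hxy : π'.SameCycle x y) : π.SameCycle x y := by
  obtain ⟨n, rfl⟩ := sc_nat hxy
  induction n with
  | zero => simpa using Perm.SameCycle.refl π x
  | succ n ih =>
    rw [pow_succ', Perm.mul_apply]
    exact (ih ⟨n, rfl⟩).trans (h _)

/-- removing the point `j` from its cycle does not change the cycles of the other points -/
theorem sc_contract (π : Perm α) {j x y : α} (hx : x ≠ j) (hy : y ≠ j) :
    (π * swap j (π⁻¹ j)).SameCycle x y ↔ π.SameCycle x y := by
  have e1 : (π * swap j (π⁻¹ j)) j = j := by simp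
  have e2 : (π * swap j (π⁻¹ j)) (π⁻¹ j) = π j := by simp
  have e3 : ∀ t, t ≠ j → π t ≠ j → (π * swap j (π⁻¹ j)) t = π t := by
    intro t h1 h2
    rw [Perm.mul_apply, swap_apply_of_ne_of_ne h1 (fun h => h2 (by rw [h]; simp))]
  constructor
  · intro h
    refine sc_of_step (fun t => ?_) h
    by_cases h1 : t = j
    · rw [h1, e1]
    by_cases h2 : π t = j
    · have ht : t = π⁻¹ j := by rw [← h2]; simp
      rw [ht, e2]
      refine ⟨2, ?_⟩
      rw [zpow_two, Perm.mul_apply, ap_inv]
    · rw [e3 t h1 h2]
      exact ⟨1, by simp⟩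
  · intro h
    obtain ⟨n, hn⟩ := sc_nat h
    clear h
    induction n using Nat.strong_induction_on generalizing x with
    | _ n ih =>
      match n, hn with
      | 0, hn => simp at hn; rw [hn]
      | 1, hn =>
        simp at hn
        have : (π * swap j (π⁻¹ j)) x = y := by rw [e3 x hx (by rw [hn]; exact hy), hn]
        exact ⟨1, by simpa using this⟩
      | n + 2, hn =>
        by_cases h2 : π x = j
        · have ht : x = π⁻¹ j := by rw [← h2]; simp
          have hj : π j ≠ j := by
            intro hj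
            apply hx
            rw [ht]
            nth_rewrite 1 [← hj]
            simp
          have hn' : (π ^ n) (π j) = y := by
            rw [← hn, pow_succ, pow_succ, Perm.mul_apply, Perm.mul_apply, h2]
          have h3 := ih n (by omega) hj hn'
          have h4 : (π * swap j (π⁻¹ j)).SameCycle x (π j) :=
            ⟨1, by rw [zpow_one, ht]; exact e2⟩
          exact h4.trans h3
        · have hn' : (π ^ (n + 1)) (π x) = y := by
            rw [← hn, pow_succ π (n + 1), Perm.mul_apply]
          have h3 := ih (n + 1) (by omega) h2 hn'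
          have h4 : (π * swap j (π⁻¹ j)).SameCycle x (π x) :=
            ⟨1, by rw [zpow_one]; exact e3 x hx h2⟩
          exact h4.trans h3

/-- multiplication by a transposition merges or splits -/
theorem sc_swap (π : Perm α) {a b : α} (hab : a ≠ b) :
    (π * swap a b).SameCycle a b ↔ ¬ π.SameCycle a b := by
  set π' := π * swap a b with hπ'
  have ea : π' a = π b := by simp [hπ']
  have eb : π' b = π a := by simp [hπ']
  have eo : ∀ t, t ≠ a → t ≠ b → π' t = π t := by
    intro t h1 h2
    rw [hπ', Perm.mul_apply, swap_apply_of_ne_of_ne h1 h2]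
  constructor
  · intro h' h
    have hex : ∃ n : ℕ, (π ^ n) a = b := sc_nat h
    classical
    set n := Nat.find hex with hn
    have hnb : (π ^ n) a = b := Nat.find_spec hex
    have hmin : ∀ k < n, (π ^ k) a ≠ b := fun k hk => Nat.find_min hex hk
    have hn1 : 1 ≤ n := by
      rcases Nat.eq_zero_or_pos n with h0 | h0
      · rw [h0] at hnb; simp at hnb; exact absurd hnb hab
      · exact h0
    have hna : ∀ k, 1 ≤ k → k < n → (π ^ k) a ≠ a := by
      intro k hk1 hk2 hk
      refine hmin (n - k) (by omega) ?_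
      rw [← hnb]
      conv_rhs => rw [show n = (n - k) + k by omega, pow_add, Perm.mul_apply, hk]
    have hcl : ∀ m : ℕ, ∃ k, 1 ≤ k ∧ k ≤ n ∧ (π' ^ m) b = (π ^ k) a := by
      intro m
      induction m with
      | zero => exact ⟨n, hn1, le_rfl, by simp [hnb]⟩
      | succ m ih =>
        obtain ⟨k, hk1, hk2, hk⟩ := ih
        rw [pow_succ', Perm.mul_apply, hk]
        rcases lt_or_eq_of_le hk2 with h3 | h3
        · refine ⟨k + 1, by omega, by omega, ?_⟩
          rw [eo _ (hna k hk1 h3) (hmin k h3), pow_succ', Perm.mul_apply]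
        · refine ⟨1, le_rfl, hn1, ?_⟩
          rw [h3, hnb, eb, pow_one]
    obtain ⟨m, hm⟩ := sc_nat h'.symm
    obtain ⟨k, hk1, hk2, hk⟩ := hcl m
    rw [hm] at hk
    rcases lt_or_eq_of_le hk2 with h3 | h3
    · exact hna k hk1 h3 hk.symm
    · rw [h3, hnb] at hk; exact hab hk
  · intro h
    have hex : ∃ n : ℕ, 1 ≤ n ∧ (π ^ n) a = a :=
      ⟨orderOf π, orderOf_pos π, by rw [pow_orderOf_eq_one]; rfl⟩
    classical
    set n := Nat.find hex with hn
    have hnb : 1 ≤ n ∧ (π ^ n) a = a := Nat.find_spec hex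
    have hmin : ∀ k < n, 1 ≤ k → (π ^ k) a ≠ a := fun k hk h1 h2 => Nat.find_min hex hk ⟨h1, h2⟩
    have hcl : ∀ k, 1 ≤ k → k ≤ n → (π' ^ k) b = (π ^ k) a := by
      intro k hk1
      induction k, hk1 using Nat.le_induction with
      | base => intro _; simpa using eb
      | succ k hk1 ih =>
        intro hk2
        rw [pow_succ', Perm.mul_apply, ih (by omega), pow_succ', Perm.mul_apply]
        exact eo _ (hmin k (by omega) hk1) (fun hh => h ⟨k, by simpa using hh⟩)
    have := hcl n hnb.1 le_rfl
    rw [hnb.2] at this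
    exact Perm.SameCycle.symm ⟨n, by simpa using this⟩

/-- left-handed form -/
theorem sc_swap_left (π : Perm α) {a b : α} (hab : a ≠ b) :
    (swap a b * π).SameCycle a b ↔ ¬ π.SameCycle a b := by
  rw [← Perm.sameCycle_inv, mul_inv_rev, swap_inv, sc_swap π⁻¹ hab, Perm.sameCycle_inv]

omit [Fintype α] in
theorem pow_swap_other (π : Perm α) {a b s : α} (h1 : ¬ π.SameCycle s a)
    (h2 : ¬ π.SameCycle s b) (n : ℕ) : ((π * swap a b) ^ n) s = (π ^ n) s := by
  induction n with
  | zero => rfl
  | succ n ih =>
    rw [pow_succ', Perm.mul_apply, ih, pow_succ', Perm.mul_apply, Perm.mul_apply,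
      swap_apply_of_ne_of_ne]
    · exact fun h => h1 ⟨n, by simpa using h⟩
    · exact fun h => h2 ⟨n, by simpa using h⟩

theorem sc_swap_other (π : Perm α) {a b s x : α} (h1 : ¬ π.SameCycle s a)
    (h2 : ¬ π.SameCycle s b) : (π * swap a b).SameCycle s x ↔ π.SameCycle s x := by
  constructor
  · intro h
    obtain ⟨n, hn⟩ := sc_nat h
    rw [pow_swap_other π h1 h2] at hn
    exact ⟨n, by simpa using hn⟩
  · intro h
    obtain ⟨n, hn⟩ := sc_nat h
    rw [← pow_swap_other π h1 h2] at hn
    exact ⟨n, by simpa using hn⟩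

theorem sc_swap_left_other (π : Perm α) {a b s x : α} (h1 : ¬ π.SameCycle s a)
    (h2 : ¬ π.SameCycle s b) : (swap a b * π).SameCycle s x ↔ π.SameCycle s x := by
  rw [← Perm.sameCycle_inv, mul_inv_rev, swap_inv, sc_swap_other, Perm.sameCycle_inv]
  · rwa [Perm.sameCycle_inv]
  · rwa [Perm.sameCycle_inv]

omit [DecidableEq α] in
/-- two permutations which agree on the cycle of `s` -/
theorem sc_agree {π π' : Perm α} {s x : α} (h : ∀ y, π.SameCycle s y → π' y = π y) :
    π'.SameCycle s x ↔ π.SameCycle s x := by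
  have key : ∀ n : ℕ, (π' ^ n) s = (π ^ n) s := by
    intro n
    induction n with
    | zero => rfl
    | succ n ih =>
      rw [pow_succ', Perm.mul_apply, ih, pow_succ', Perm.mul_apply]
      exact h _ ⟨n, by simp⟩
  constructor
  · intro h1
    obtain ⟨n, hn⟩ := sc_nat h1
    rw [key] at hn
    exact ⟨n, by simpa using hn⟩
  · intro h1
    obtain ⟨n, hn⟩ := sc_nat h1
    rw [← key] at hn
    exact ⟨n, by simpa using hn⟩

end cycles

section main

variable {α : Type*} [LinearOrder α] [Fintype α]

/-- the number of `k ≤ i` with `l < V k` -/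
def rk (V : Perm α) (i l : α) : ℕ := ∑ k, if k ≤ i ∧ l < V k then 1 else 0

/-- the rank-bounded set -/
def RankSet (ρ : α → α → ℕ) : Finset (Perm α) := univ.filter (fun V => ∀ i l, rk V i l ≤ ρ i l)

/-- the members of the rank-bounded set which agree with `V0` outside `P` -/
def cls (ρ : α → α → ℕ) (P : Finset α) (V0 : Perm α) : Finset (Perm α) :=
  (RankSet ρ).filter (fun V => ∀ p, p ∉ P → V p = V0 p)

theorem mem_cls {ρ : α → α → ℕ} {P : Finset α} {V0 V : Perm α} :
    V ∈ cls ρ P V0 ↔ (∀ i l, rk V i l ≤ ρ i l) ∧ ∀ p, p ∉ P → V p = V0 p := by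
  simp [cls, RankSet]

/-- `+1` if `a`, `b` lie in different cycles, `-1` if in the same -/
def sg (π : Perm α) (a b : α) : ℤ := if π.SameCycle a b then -1 else 1

theorem sg_congr {π π' : Perm α} {a b a' b' : α} (h : π'.SameCycle a' b' ↔ π.SameCycle a b) :
    sg π a b = sg π' a' b' := by
  unfold sg
  by_cases h1 : π.SameCycle a b
  · rw [if_pos h1, if_pos (h.2 h1)]
  · rw [if_neg h1, if_neg (fun h2 => h1 (h.1 h2))]

omit [Fintype α] in
theorem mem_iff {P Q : Finset α} {V0 V : Perm α} (hQ : ∀ p, V0 p ∈ Q ↔ p ∈ P)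
    (hV : ∀ p, p ∉ P → V p = V0 p) (p : α) : V p ∈ Q ↔ p ∈ P := by
  constructor
  · intro h
    by_contra hp
    rw [hV p hp, hQ] at h
    exact hp h
  · intro hp
    by_contra h
    have h1 : V0⁻¹ (V p) ∉ P := by
      intro h2
      apply h
      have := (hQ (V0⁻¹ (V p))).2 h2
      rwa [ap_inv] at this
    have h2 : V (V0⁻¹ (V p)) = V p := by rw [hV _ h1, ap_inv]
    have h3 := V.injective h2
    rw [h3] at h1
    exact h1 hp

/-- ranks do not change under the exchange of the values at `a < b` except in the rows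
`a ≤ i < b`. -/
theorem rk_swap_of {V : Perm α} {a b i l : α} (h : a ≤ i ↔ b ≤ i) :
    rk (V * swap a b) i l = rk V i l := by
  unfold rk
  refine Fintype.sum_equiv (swap a b) _ _ (fun k => ?_)
  have : k ≤ i ↔ swap a b k ≤ i := by
    by_cases h1 : k = a
    · subst h1; rw [swap_apply_left]; exact h
    by_cases h2 : k = b
    · subst h2; rw [swap_apply_right]; exact h.symm
    rw [swap_apply_of_ne_of_ne h1 h2]
  rw [Perm.mul_apply]
  simp only [this]

/-- the fixed part of the ranks in the rows between the two least free positions -/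
theorem rk_eq_of {P : Finset α} {V0 V : Perm α} {a b i l : α} (ha : a ∈ P)
    (hb : ∀ p ∈ P, p ≠ a → b ≤ p) (h1 : a ≤ i) (h2 : i < b) (hV : ∀ p, p ∉ P → V p = V0 p) :
    rk V i l = (∑ k, if k ≤ i ∧ k ∉ P ∧ l < V0 k then 1 else 0) + if l < V a then 1 else 0 := by
  have e : (if l < V a then 1 else 0) = ∑ k, if k = a then (if l < V k then 1 else 0) else 0 := by
    rw [Finset.sum_ite_eq']; simp
  rw [e, ← Finset.sum_add_distrib]
  unfold rk
  refine Finset.sum_congr rfl (fun k _ => ?_)
  by_cases hk : k ∈ P
  · by_cases hka : k = a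
    · subst hka; simp [h1, ha]
    · have : ¬ k ≤ i := fun h => absurd (lt_of_le_of_lt h h2) (not_lt.2 (hb k hk hka))
      simp [this, hka]
  · have hka : k ≠ a := fun h => hk (h ▸ ha)
    simp [hk, hka, hV k hk]

/-- fixing one more strand -/
theorem cls_erase {ρ : α → α → ℕ} {P : Finset α} {V0 V1 : Perm α} {j i : α}
    (h1 : V1 ∈ cls ρ P V0) (hi : V1 j = i) :
    (cls ρ P V0).filter (fun V => V j = i) = cls ρ (P.erase j) V1 := by
  rw [mem_cls] at h1
  ext V
  rw [Finset.mem_filter, mem_cls, mem_cls]
  constructor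
  · rintro ⟨⟨h2, h3⟩, h4⟩
    refine ⟨h2, fun p hp => ?_⟩
    by_cases hpj : p = j
    · rw [hpj, h4, hi]
    · have : p ∉ P := fun h => hp (Finset.mem_erase.2 ⟨hpj, h⟩)
      rw [h3 p this, h1.2 p this]
  · rintro ⟨h2, h3⟩
    refine ⟨⟨h2, fun p hp => ?_⟩, ?_⟩
    · rw [h3 p (fun h => hp (Finset.mem_of_mem_erase h)), h1.2 p hp]
    · rw [h3 j (Finset.notMem_erase j P), hi]

omit [Fintype α] in
/-- the feedback after the strand `j → i` has been fixed -/
theorem fb_mul {σ V : Perm α} {i j : α} (h : V j = i) :
    σ * swap i (σ⁻¹ j) * V = σ * V * swap j ((σ * V)⁻¹ j) := by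
  ext t
  simp only [Perm.mul_apply, mul_inv_rev]
  by_cases h1 : t = j
  · subst h1; rw [h]; simp
  by_cases h2 : t = V⁻¹ (σ⁻¹ j)
  · subst h2
    simp [h]
  · rw [swap_apply_of_ne_of_ne h1 h2, swap_apply_of_ne_of_ne]
    · intro h3; apply h1; rw [← h] at h3; exact V.injective h3
    · intro h3; apply h2; rw [← h3]; simp

omit [Fintype α] in
theorem fb_mem {P Q : Finset α} {σ V : Perm α} {i j : α} (hQ : ∀ p, V p ∈ Q ↔ p ∈ P)
    (hσ : ∀ q, q ∈ Q ↔ σ q ∈ P) (hj : j ∈ P) (h : V j = i) :
    (∀ p, V p ∈ Q.erase i ↔ p ∈ P.erase j) ∧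
      (∀ q, q ∈ Q.erase i ↔ (σ * swap i (σ⁻¹ j)) q ∈ P.erase j) := by
  have hiQ : i ∈ Q := by rw [← h]; exact (hQ j).2 hj
  constructor
  · intro p
    rw [Finset.mem_erase, Finset.mem_erase, hQ, ← h]
    constructor
    · rintro ⟨h1, h2⟩; exact ⟨fun h3 => h1 (by rw [h3]), h2⟩
    · rintro ⟨h1, h2⟩; exact ⟨fun h3 => h1 (V.injective h3), h2⟩
  · intro q
    rw [Perm.mul_apply, Finset.mem_erase, Finset.mem_erase]
    by_cases h1 : q = i
    · rw [h1, swap_apply_left, ap_inv]; simp
    by_cases h2 : q = σ⁻¹ j
    · rw [h2, swap_apply_right]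
      have e1 : σ i ≠ j := by
        intro h3
        apply h1
        rw [h2, ← h3, inv_ap]
      have e2 : σ⁻¹ j ∈ Q := by rw [hσ, ap_inv]; exact hj
      have e3 : σ i ∈ P := (hσ i).1 hiQ
      rw [← h2]
      constructor
      · intro _; exact ⟨e1, e3⟩
      · intro _; exact ⟨h1, by rw [h2]; exact e2⟩
    · rw [swap_apply_of_ne_of_ne h1 h2, hσ q]
      constructor
      · rintro ⟨_, h3⟩
        exact ⟨fun h4 => h2 (by rw [← h4, inv_ap]), h3⟩
      · rintro ⟨_, h3⟩; exact ⟨h1, h3⟩

/-- **Theorem (G)** (class form).  `P` = free positions, `Q` = free values of the class of `V0`,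
`σ` = feedback, `a` = least free position, `c` = least free value, `σ c = a`. -/
theorem feedback_cls (ρ : α → α → ℕ) : ∀ (n : ℕ) (P Q : Finset α) (V0 σ : Perm α) (a b c : α),
    P.card = n → (∀ p, V0 p ∈ Q ↔ p ∈ P) → (∀ q, q ∈ Q ↔ σ q ∈ P) →
    a ∈ P → (∀ p ∈ P, a ≤ p) → b ∈ P → b ≠ a → c ∈ Q → (∀ q ∈ Q, c ≤ q) → σ c = a →
    0 ≤ ∑ V ∈ cls ρ P V0, sg (σ * V) a b := by
  intro n
  induction n with
  | zero =>
    intro P Q V0 σ a b c hn _ _ ha
    rw [Finset.card_eq_zero] at hn
    rw [hn] at ha
    exact absurd ha (Finset.notMem_empty a)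
  | succ n ih =>
    intro P Q V0 σ a b c hn hQ hσ ha hamin hb hba hc hcmin hca
    by_cases hsec : ∀ p ∈ P, p ≠ a → b ≤ p
    · -- `b` is the second least free position
      have hab : a < b := lt_of_le_of_ne (hamin b hb) hba.symm
      let K : α → α → ℕ := fun i l => ∑ k, if k ≤ i ∧ k ∉ P ∧ l < V0 k then 1 else 0
      let A : α → Prop := fun y => ∀ i, a ≤ i → i < b → ∀ l, K i l + (if l < y then 1 else 0) ≤ ρ i l
      have hAmono : ∀ y y', y ≤ y' → A y' → A y := by
        intro y y' hyy hA i h1 h2 l
        refine le_trans ?_ (hA i h1 h2 l)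
        by_cases h3 : l < y
        · rw [if_pos h3, if_pos (lt_of_lt_of_le h3 hyy)]
        · rw [if_neg h3]; omega
      have hAa : ∀ V ∈ cls ρ P V0, A (V a) := by
        intro V hV i h1 h2 l
        rw [mem_cls] at hV
        have := hV.1 i l
        rwa [rk_eq_of ha hsec h1 h2 hV.2] at this
      classical
      rw [← Finset.sum_filter_add_sum_filter_not (cls ρ P V0) (fun V => A (V b))]
      have hS1 : ∑ V ∈ (cls ρ P V0).filter (fun V => A (V b)), sg (σ * V) a b = 0 := by
        refine Finset.sum_involution (fun V _ => V * swap a b) ?_ ?_ ?_ ?_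
        · intro V _
          have h1 := sc_swap (σ * V) hba.symm
          rw [mul_assoc] at h1
          unfold sg
          by_cases h2 : (σ * V).SameCycle a b
          · rw [if_pos h2, if_neg (fun h3 => h1.1 h3 h2)]; norm_num
          · rw [if_neg h2, if_pos (h1.2 h2)]; norm_num
        · intro V _ _ h1
          have h2 : (V * swap a b) a = V a := by rw [h1]
          rw [Perm.mul_apply, swap_apply_left] at h2
          exact hba (V.injective h2)
        · intro V hV
          rw [Finset.mem_filter] at hV ⊢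
          have hVc := hV.1
          rw [mem_cls] at hVc
          have hout : ∀ p, p ∉ P → (V * swap a b) p = V0 p := by
            intro p hp
            have hpa : p ≠ a := fun h => hp (by rw [h]; exact ha)
            have hpb : p ≠ b := fun h => hp (by rw [h]; exact hb)
            rw [Perm.mul_apply, swap_apply_of_ne_of_ne hpa hpb, hVc.2 p hp]
          refine ⟨?_, ?_⟩
          · rw [mem_cls]
            refine ⟨fun i l => ?_, hout⟩
            by_cases h1 : a ≤ i ∧ i < b
            · rw [rk_eq_of ha hsec h1.1 h1.2 hout, Perm.mul_apply, swap_apply_left]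
              exact hV.2 i h1.1 h1.2 l
            · have h2 : a ≤ i ↔ b ≤ i := by
                constructor
                · intro h3
                  by_contra h4
                  exact h1 ⟨h3, not_le.1 h4⟩
                · intro h3; exact hab.le.trans h3
              rw [rk_swap_of h2]
              exact hVc.1 i l
          · rw [Perm.mul_apply, swap_apply_right]
            exact hAa V hV.1
        · intro V _
          rw [mul_assoc, swap_mul_self, mul_one]
      rw [hS1, zero_add]
      rw [← Finset.sum_fiberwise (s := (cls ρ P V0).filter (fun V => ¬ A (V b))) (g := fun V => V b)]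
      refine Finset.sum_nonneg (fun z _ => ?_)
      rw [Finset.filter_filter]
      by_cases hz : A z
      · have : (cls ρ P V0).filter (fun V => ¬ A (V b) ∧ V b = z) = ∅ := by
          refine Finset.filter_eq_empty_iff.2 (fun V _ h => h.1 (by rw [h.2]; exact hz))
        rw [this]; simp
      have hfe : (cls ρ P V0).filter (fun V => ¬ A (V b) ∧ V b = z) =
          (cls ρ P V0).filter (fun V => V b = z) := by
        refine Finset.filter_congr (fun V _ => ⟨fun h => h.2, fun h => ⟨by rw [h]; exact hz, h⟩⟩)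
      rw [hfe]
      rcases ((cls ρ P V0).filter (fun V => V b = z)).eq_empty_or_nonempty with h0 | ⟨V1, hV1⟩
      · rw [h0]; simp
      rw [Finset.mem_filter] at hV1
      have hV1c := hV1.1
      rw [mem_cls] at hV1c
      have hQ1 := mem_iff hQ hV1c.2
      have hzQ : z ∈ Q := by rw [← hV1.2]; exact (hQ1 b).2 hb
      have hzc : c ≠ z := by
        intro h
        apply hz
        rw [← h]
        exact hAmono c (V1 a) (hcmin _ ((hQ1 a).2 ha)) (hAa V1 hV1.1)
      by_cases hzb : σ z = b
      · refine Finset.sum_nonneg (fun V hV => ?_)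
        rw [Finset.mem_filter] at hV
        have hfix : (σ * V) b = b := by rw [Perm.mul_apply, hV.2, hzb]
        have : ¬ (σ * V).SameCycle a b := by
          intro h
          obtain ⟨m, hm⟩ := sc_nat h.symm
          have : ∀ m : ℕ, ((σ * V) ^ m) b = b := by
            intro m
            induction m with
            | zero => simp
            | succ m ihm => rw [pow_succ', Perm.mul_apply, ihm, hfix]
          rw [this m] at hm
          exact hba hm
        unfold sg
        rw [if_neg this]; norm_num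
      · rw [cls_erase hV1.1 hV1.2]
        have hfb := fb_mem hQ1 hσ hb hV1.2
        have hca' : (σ * swap z (σ⁻¹ b)) c = a := by
          rw [Perm.mul_apply, swap_apply_of_ne_of_ne hzc, hca]
          intro h
          rw [h, ap_inv] at hca
          exact hba hca
        have hres := ih (P.erase b) (Q.erase z) V1 (σ * swap z (σ⁻¹ b)) a (σ z) c
          (by rw [Finset.card_erase_of_mem hb, hn]; rfl) hfb.1 hfb.2
          (Finset.mem_erase.2 ⟨hba.symm, ha⟩) (fun p hp => hamin p (Finset.mem_of_mem_erase hp))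
          (Finset.mem_erase.2 ⟨hzb, (hσ z).1 hzQ⟩)
          (fun h => hzc (σ.injective (by rw [hca, h])))
          (Finset.mem_erase.2 ⟨hzc, hc⟩) (fun q hq => hcmin q (Finset.mem_of_mem_erase hq)) hca'
        refine le_of_le_of_eq hres (Finset.sum_congr rfl (fun V hV => (sg_congr ?_).symm))
        have hVb : V b = z := by
          rw [mem_cls] at hV
          rw [hV.2 b (Finset.notMem_erase b P), hV1.2]
        rw [fb_mul hVb, sc_contract (σ * V) hba.symm hzb]
        have h1 : (σ * V).SameCycle b (σ z) := ⟨1, by rw [zpow_one, Perm.mul_apply, hVb]⟩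
        exact ⟨fun h => h.trans h1.symm, fun h => h.trans h1⟩
    · -- the second least free position `a'` is not `b`
      push Not at hsec
      obtain ⟨p0, hp0, hp0a, hp0b⟩ := hsec
      have hne : (P.erase a).Nonempty := ⟨p0, Finset.mem_erase.2 ⟨hp0a, hp0⟩⟩
      obtain ⟨a', ha', ha'min⟩ := Finset.exists_min_image (P.erase a) id hne
      simp only [id] at ha'min
      rw [Finset.mem_erase] at ha'
      have ha'b : a' ≠ b := by
        intro h
        have := ha'min p0 (Finset.mem_erase.2 ⟨hp0a, hp0⟩)
        rw [h] at this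
        exact absurd hp0b (not_lt.2 this)
      set i := σ⁻¹ a' with hi
      have hσi : σ i = a' := by rw [hi, ap_inv]
      have hci : c ≠ i := by
        intro h
        rw [← h, hca] at hσi
        exact ha'.1 hσi.symm
      rw [← Finset.sum_fiberwise (s := cls ρ P V0) (g := fun V => V⁻¹ i)]
      refine Finset.sum_nonneg (fun j _ => ?_)
      have hfe : (cls ρ P V0).filter (fun V => V⁻¹ i = j) =
          (cls ρ P V0).filter (fun V => V j = i) := by
        refine Finset.filter_congr (fun V _ => ⟨fun h => by rw [← h, ap_inv],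
          fun h => by rw [← h, inv_ap]⟩)
      rw [hfe]
      rcases ((cls ρ P V0).filter (fun V => V j = i)).eq_empty_or_nonempty with h0 | ⟨V1, hV1⟩
      · rw [h0]; simp
      rw [Finset.mem_filter] at hV1
      have hV1c := hV1.1
      rw [mem_cls] at hV1c
      have hQ1 := mem_iff hQ hV1c.2
      have hiQ : i ∈ Q := by rw [hσ, hσi]; exact ha'.2
      have hjP : j ∈ P := by rw [← hQ1, hV1.2]; exact hiQ
      rw [cls_erase hV1.1 hV1.2]
      have hfb := fb_mem hQ1 hσ hjP hV1.2
      have hcard : (P.erase j).card = n := by rw [Finset.card_erase_of_mem hjP, hn]; rfl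
      have hcQ : c ∈ Q.erase i := Finset.mem_erase.2 ⟨hci, hc⟩
      have hcm : ∀ q ∈ Q.erase i, c ≤ q := fun q hq => hcmin q (Finset.mem_of_mem_erase hq)
      have hVj : ∀ V ∈ cls ρ (P.erase j) V1, V j = i := by
        intro V hV
        rw [mem_cls] at hV
        rw [hV.2 j (Finset.notMem_erase j P), hV1.2]
      have hstep : ∀ V ∈ cls ρ (P.erase j) V1, (σ * V).SameCycle j a' := by
        intro V hV
        exact ⟨1, by rw [zpow_one, Perm.mul_apply, hVj V hV, hσi]⟩
      by_cases hja : j = a
      · have hca' : (σ * swap i (σ⁻¹ j)) c = a' := by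
          have : σ⁻¹ j = c := by rw [hja, ← hca, inv_ap]
          rw [this, Perm.mul_apply, swap_apply_right, hσi]
        have hres := ih (P.erase j) (Q.erase i) V1 (σ * swap i (σ⁻¹ j)) a' b c hcard hfb.1 hfb.2
          (by rw [hja]; exact Finset.mem_erase.2 ha') (by rw [hja]; exact ha'min)
          (by rw [hja]; exact Finset.mem_erase.2 ⟨hba, hb⟩) ha'b.symm hcQ hcm hca'
        refine le_of_le_of_eq hres (Finset.sum_congr rfl (fun V hV => (sg_congr ?_).symm))
        rw [fb_mul (hVj V hV), sc_contract (σ * V) (by rw [hja]; exact ha'.1)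
          (by rw [hja]; exact hba)]
        have h1 := hstep V hV
        rw [hja] at h1
        exact ⟨fun h => h1.trans h, fun h => h1.symm.trans h⟩
      have haP : a ∈ P.erase j := Finset.mem_erase.2 ⟨fun h => hja h.symm, ha⟩
      have ham : ∀ p ∈ P.erase j, a ≤ p := fun p hp => hamin p (Finset.mem_of_mem_erase hp)
      have hca' : (σ * swap i (σ⁻¹ j)) c = a := by
        rw [Perm.mul_apply, swap_apply_of_ne_of_ne hci, hca]
        intro h
        rw [h, ap_inv] at hca
        exact hja hca
      by_cases hjb : j = b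
      · have hres := ih (P.erase j) (Q.erase i) V1 (σ * swap i (σ⁻¹ j)) a a' c hcard hfb.1 hfb.2
          haP ham (by rw [hjb]; exact Finset.mem_erase.2 ⟨ha'b, ha'.2⟩) ha'.1 hcQ hcm hca'
        refine le_of_le_of_eq hres (Finset.sum_congr rfl (fun V hV => (sg_congr ?_).symm))
        rw [fb_mul (hVj V hV), sc_contract (σ * V) (fun h => hja h.symm)
          (by rw [hjb]; exact ha'b)]
        have h1 := hstep V hV
        rw [hjb] at h1
        exact ⟨fun h => h.trans h1.symm, fun h => h.trans h1⟩
      · have hres := ih (P.erase j) (Q.erase i) V1 (σ * swap i (σ⁻¹ j)) a b c hcard hfb.1 hfb.2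
          haP ham (Finset.mem_erase.2 ⟨fun h => hjb h.symm, hb⟩) hba hcQ hcm hca'
        refine le_of_le_of_eq hres (Finset.sum_congr rfl (fun V hV => (sg_congr ?_).symm))
        rw [fb_mul (hVj V hV), sc_contract (σ * V) (fun h => hja h.symm) (fun h => hjb h.symm)]

/-- **Theorem (G)** for all permutations: `F` rank-bounded, `σ` any feedback permutation which
sends the least value to the least position `a`; every other point `b` is on the loop of `a` with
probability at most one half. -/
theorem feedback (ρ : α → α → ℕ) (σ : Perm α) {a b : α} (hmin : ∀ x, a ≤ x) (hba : b ≠ a)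
    (hσ : σ a = a) :
    ((RankSet ρ).filter (fun V => (σ * V).SameCycle a b)).card ≤
      ((RankSet ρ).filter (fun V => ¬ (σ * V).SameCycle a b)).card := by
  have h := feedback_cls ρ (univ : Finset α).card univ univ 1 σ a b a rfl (by simp) (by simp)
    (by simp) (by simpa using hmin) (by simp) hba (by simp) (by simpa using hmin) hσ
  have hc : cls ρ univ 1 = RankSet ρ := by
    unfold cls
    exact Finset.filter_true_of_mem (fun V _ p hp => absurd (Finset.mem_univ p) hp)
  rw [hc] at h
  unfold sg at h
  rw [Finset.sum_ite, Finset.sum_const, Finset.sum_const] at h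
  simp only [nsmul_eq_mul, mul_neg, mul_one] at h
  omega

/-- `V` closes to `z` on the initial set `S` (with the feedback `z⁻¹` on the rest): every cycle of
`z⁻¹ * V` meets `S` at most once.  If `z` fixes the points outside `S` this says that the first
return map of `V` to `S` is `z`. -/
def Closes (S : Finset α) (π : Perm α) : Prop := ∀ s ∈ S, ∀ x ∈ S, π.SameCycle s x → s = x

instance (S : Finset α) (π : Perm α) : Decidable (Closes S π) := by
  unfold Closes; infer_instance

/-- **(ii)**: the number of `V` in a rank-bounded set whose closing on the initial set `S` is `z`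
decreases along the Bruhat order of `z`. -/
theorem closing_dec (ρ : α → α → ℕ) {S : Finset α} (hS : ∀ x ∈ S, ∀ y, y ∉ S → x < y)
    (z : Perm α) (hz : ∀ x, z x ∈ S ↔ x ∈ S) {p q : α} (hp : p ∈ S) (hq : q ∈ S) (hpq : p < q)
    (hzpq : z p < z q) :
    ((RankSet ρ).filter (fun V => Closes S ((z * swap p q)⁻¹ * V))).card ≤
      ((RankSet ρ).filter (fun V => Closes S (z⁻¹ * V))).card := by
  classical
  let E : Finset (Perm α) := (RankSet ρ).filter
    (fun V => ∀ s ∈ S, s ≠ p → s ≠ q → ∀ x ∈ S, (z⁻¹ * V).SameCycle s x → s = x)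
  have hA : (RankSet ρ).filter (fun V => Closes S (z⁻¹ * V)) =
      E.filter (fun V => ¬ (z⁻¹ * V).SameCycle p q) := by
    rw [Finset.filter_filter]
    refine Finset.filter_congr (fun V _ => ?_)
    constructor
    · intro h
      exact ⟨fun s hs _ _ => h s hs, fun h1 => hpq.ne (h p hp q hq h1)⟩
    · rintro ⟨h1, h2⟩ s hs x hx h3
      by_cases h4 : s = p ∨ s = q
      · by_cases h5 : x = p ∨ x = q
        · rcases h4 with rfl | rfl <;> rcases h5 with rfl | rfl
          · rfl
          · exact absurd h3 h2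
          · exact absurd h3.symm h2
          · rfl
        · push Not at h5
          exact (h1 x hx h5.1 h5.2 s hs h3.symm).symm
      · push Not at h4
        exact h1 s hs h4.1 h4.2 x hx h3
  have hB : (RankSet ρ).filter (fun V => Closes S ((z * swap p q)⁻¹ * V)) =
      E.filter (fun V => (z⁻¹ * V).SameCycle p q) := by
    rw [Finset.filter_filter]
    refine Finset.filter_congr (fun V _ => ?_)
    have e : (z * swap p q)⁻¹ * V = swap p q * (z⁻¹ * V) := by
      rw [mul_inv_rev, swap_inv, mul_assoc]
    have e' : z⁻¹ * V = swap p q * (swap p q * (z⁻¹ * V)) := by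
      rw [← mul_assoc (swap p q), swap_mul_self, one_mul]
    rw [e]
    constructor
    · intro h
      have h0 : (z⁻¹ * V).SameCycle p q := by
        by_contra h1
        exact hpq.ne (h p hp q hq ((sc_swap_left _ hpq.ne).2 h1))
      refine ⟨fun s hs hsp hsq x hx h1 => ?_, h0⟩
      refine h s hs x hx ?_
      rw [e'] at h1
      rwa [sc_swap_left_other] at h1
      · exact fun h2 => hsp (h s hs p hp h2)
      · exact fun h2 => hsq (h s hs q hq h2)
    · rintro ⟨h1, h2⟩
      have key : ∀ s ∈ S, s ≠ p → s ≠ q → ∀ x ∈ S, (swap p q * (z⁻¹ * V)).SameCycle s x →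
          s = x := by
        intro s hs hsp hsq x hx h3
        rw [sc_swap_left_other] at h3
        · exact h1 s hs hsp hsq x hx h3
        · exact fun h4 => hsp (h1 s hs hsp hsq p hp h4)
        · exact fun h4 => hsq (h1 s hs hsp hsq q hq h4)
      intro s hs x hx h3
      by_cases h4 : s = p ∨ s = q
      · by_cases h5 : x = p ∨ x = q
        · rcases h4 with rfl | rfl <;> rcases h5 with rfl | rfl
          · rfl
          · exact absurd h2 ((sc_swap_left _ hpq.ne).1 h3)
          · exact absurd h2 ((sc_swap_left _ hpq.ne).1 h3.symm)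
          · rfl
        · push Not at h5
          exact (key x hx h5.1 h5.2 s hs h3.symm).symm
      · push Not at h4
        exact key s hs h4.1 h4.2 x hx h3
  have hmain : 0 ≤ ∑ V ∈ E, sg (z⁻¹ * V) p q := by
    let O : Perm α → Finset α := fun V =>
      univ.filter (fun x => ∃ s ∈ S, s ≠ p ∧ s ≠ q ∧ (z⁻¹ * V).SameCycle s x)
    let κ : Perm α → (α → Option α) := fun V x => if x ∈ O V then some (V x) else none
    rw [← Finset.sum_fiberwise (s := E) (g := κ)]
    refine Finset.sum_nonneg (fun k _ => ?_)
    rcases (E.filter (fun V => κ V = k)).eq_empty_or_nonempty with h0 | ⟨V1, hV1⟩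
    · rw [h0]; simp
    rw [Finset.mem_filter] at hV1
    obtain ⟨hV1E, hV1k⟩ := hV1
    have hE1 := (Finset.mem_filter.1 hV1E).2
    have hR1 := (Finset.mem_filter.1 hV1E).1
    have hmemO : ∀ V x, x ∈ O V ↔ ∃ s ∈ S, s ≠ p ∧ s ≠ q ∧ (z⁻¹ * V).SameCycle s x := by
      intro V x; simp [O]
    -- permutations which agree with `V1` on `O V1`
    have hagree : ∀ V : Perm α, (∀ x ∈ O V1, V x = V1 x) → ∀ s ∈ S, s ≠ p → s ≠ q → ∀ x,
        (z⁻¹ * V).SameCycle s x ↔ (z⁻¹ * V1).SameCycle s x := by
      intro V hV s hs hsp hsq x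
      refine sc_agree (fun y hy => ?_)
      rw [Perm.mul_apply, Perm.mul_apply, hV y ((hmemO V1 y).2 ⟨s, hs, hsp, hsq, hy⟩)]
    have hOeq : ∀ V : Perm α, (∀ x ∈ O V1, V x = V1 x) → O V = O V1 := by
      intro V hV
      ext x
      rw [hmemO, hmemO]
      constructor
      · rintro ⟨s, hs, h1, h2, h3⟩; exact ⟨s, hs, h1, h2, (hagree V hV s hs h1 h2 x).1 h3⟩
      · rintro ⟨s, hs, h1, h2, h3⟩; exact ⟨s, hs, h1, h2, (hagree V hV s hs h1 h2 x).2 h3⟩
    let P : Finset α := univ.filter (fun x => x ∉ O V1)
    have hmemP : ∀ x, x ∈ P ↔ x ∉ O V1 := by intro x; simp [P]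
    have hfib : E.filter (fun V => κ V = k) = cls ρ P V1 := by
      ext V
      rw [Finset.mem_filter, mem_cls]
      constructor
      · rintro ⟨hVE, hVk⟩
        have hVR := (Finset.mem_filter.1 hVE).1
        refine ⟨(Finset.mem_filter.1 hVR).2, fun x hx => ?_⟩
        rw [hmemP, not_not] at hx
        have h1 : κ V x = κ V1 x := by rw [hVk, hV1k]
        simp only [κ] at h1
        rw [if_pos hx] at h1
        by_cases h2 : x ∈ O V
        · rw [if_pos h2] at h1; exact Option.some.inj h1
        · rw [if_neg h2] at h1; exact absurd h1 (by simp)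
      · rintro ⟨h1, h2⟩
        have h3 : ∀ x ∈ O V1, V x = V1 x := fun x hx => h2 x (by rw [hmemP, not_not]; exact hx)
        have h4 := hOeq V h3
        refine ⟨Finset.mem_filter.2 ⟨Finset.mem_filter.2 ⟨Finset.mem_univ _, h1⟩, ?_⟩, ?_⟩
        · intro s hs hsp hsq x hx h5
          exact hE1 s hs hsp hsq x hx ((hagree V h3 s hs hsp hsq x).1 h5)
        · rw [← hV1k]
          funext x
          simp only [κ, h4]
          by_cases hx : x ∈ O V1
          · rw [if_pos hx, if_pos hx, h3 x hx]
          · rw [if_neg hx, if_neg hx]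
    rw [hfib]
    have hpP : p ∈ P := by
      rw [hmemP, hmemO]
      rintro ⟨s, hs, h1, h2, h3⟩
      exact h1 (hE1 s hs h1 h2 p hp h3)
    have hqP : q ∈ P := by
      rw [hmemP, hmemO]
      rintro ⟨s, hs, h1, h2, h3⟩
      exact h2 (hE1 s hs h1 h2 q hq h3)
    have hSP : ∀ x ∈ S, x ∈ P → x = p ∨ x = q := by
      intro x hx hxP
      by_contra h
      push Not at h
      rw [hmemP, hmemO] at hxP
      exact hxP ⟨x, hx, h.1, h.2, Perm.SameCycle.refl _ _⟩
    have hinv : ∀ x, x ∈ P ↔ (z⁻¹ * V1) x ∈ P := by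
      intro x
      rw [hmemP, hmemP, hmemO, hmemO, not_iff_not]
      constructor
      · rintro ⟨s, hs, h1, h2, h3⟩
        exact ⟨s, hs, h1, h2, h3.trans ⟨1, by simp⟩⟩
      · rintro ⟨s, hs, h1, h2, h3⟩
        exact ⟨s, hs, h1, h2, h3.trans (Perm.SameCycle.symm ⟨1, by simp⟩)⟩
    let Q : Finset α := univ.filter (fun y => V1⁻¹ y ∈ P)
    have hmemQ : ∀ y, y ∈ Q ↔ V1⁻¹ y ∈ P := by intro y; simp [Q]
    have hσ : ∀ y, y ∈ Q ↔ z⁻¹ y ∈ P := by
      intro y
      rw [hmemQ, hinv, Perm.mul_apply, ap_inv]
    refine feedback_cls ρ P.card P Q V1 z⁻¹ p q (z p) rfl (fun x => by rw [hmemQ, inv_ap]) hσ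
      hpP ?_ hqP hpq.ne' ?_ ?_ (inv_ap z p)
    · intro x hx
      by_cases hxS : x ∈ S
      · rcases hSP x hxS hx with rfl | rfl
        · exact le_rfl
        · exact hpq.le
      · exact (hS p hp x hxS).le
    · rw [hσ, inv_ap]; exact hpP
    · intro y hy
      by_cases hyS : y ∈ S
      · rw [hσ] at hy
        have h1 : z⁻¹ y ∈ S := by rw [← hz, ap_inv]; exact hyS
        rcases hSP _ h1 hy with h2 | h2
        · rw [← h2, ap_inv]
        · have : y = z q := by rw [← h2, ap_inv]
          rw [this]; exact hzpq.le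
      · exact (hS _ ((hz p).2 hp) y hyS).le
  rw [hA, hB]
  unfold sg at hmain
  rw [Finset.sum_ite, Finset.sum_const, Finset.sum_const] at hmain
  simp only [nsmul_eq_mul, mul_neg, mul_one] at hmain
  omega

end main

end Vale.Agent.P235.H102
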